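import Vale.Agent.P045b.Defs

/-!
# P045: small lemmas on bits and booleans
-/

namespace Vale.Agent.P045b

theorem tb_land (a b i : ℕ) : (Nat.land a b).testBit i = (a.testBit i && b.testBit i) :=
  Nat.testBit_and a b i

theorem tb_lor (a b i : ℕ) : (Nat.lor a b).testBit i = (a.testBit i || b.testBit i) :=
  Nat.testBit_or a b i

theorem tb_xor (a b i : ℕ) : (Nat.xor a b).testBit i = (a.testBit i ^^ b.testBit i) :=
  Nat.testBit_xor a b i

theorem tb_shl (a s i : ℕ) :
    (Nat.shiftLeft a s).testBit i = (decide (s ≤ i) && a.testBit (i - s)) :=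
  Nat.testBit_shiftLeft a

theorem tb_shr (a s i : ℕ) : (Nat.shiftRight a s).testBit i = a.testBit (s + i) :=
  Nat.testBit_shiftRight a

theorem beq_eq {a b : ℕ} (h : Nat.beq a b = true) : a = b := Nat.eq_of_beq_eq_true h

theorem tb_one (k b : ℕ) : (Nat.shiftLeft 1 k).testBit b = decide (b = k) := by
  rw [tb_shl]
  have h1 : (1 : ℕ) = 2 ^ 0 := by norm_num
  rw [h1, Nat.testBit_two_pow]
  by_cases h : k ≤ b
  · simp only [h, decide_true, Bool.true_and, decide_eq_decide]
    omega
  · simp only [h, decide_false, Bool.false_and]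
    symm
    rw [decide_eq_false_iff_not]
    omega

theorem band {a b : Bool} (h : Bool.and a b = true) : a = true ∧ b = true := by
  cases a <;> cases b <;> simp_all

theorem ble_le {a b : ℕ} (h : Nat.ble a b = true) : a ≤ b := Nat.le_of_ble_eq_true h

theorem ble_lt {a b : ℕ} (h : Nat.ble (Nat.succ a) b = true) : a < b := Nat.le_of_ble_eq_true h

/-- bits of a block of 16 ones -/
theorem tb_block (s q : ℕ) :
    (Nat.shiftLeft 65535 s).testBit q = (decide (s ≤ q) && decide (q - s < 16)) := by
  rw [tb_shl]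
  have h : (65535 : ℕ) = 2 ^ 16 - 1 := by norm_num
  rw [h, Nat.testBit_two_pow_sub_one]

theorem land112 : ∀ i, i < 8 → ∀ x, x < 16 → Nat.land (16 * i + x) 112 = 16 * i := by decide

theorem tb_partMask {i x : ℕ} (hi : i < 8) (hx : x < 16) (q : ℕ) :
    (partMask (16 * i + x)).testBit q = (decide (16 * i ≤ q) && decide (q - 16 * i < 16)) := by
  unfold partMask
  rw [land112 i hi x hx, tb_block]

theorem tb_log2 {m : ℕ} (h : m ≠ 0) : m.testBit (Nat.log2 m) = true := by
  exact Nat.testBit_log2 h

theorem tb_edgeAt {P : Par} (hP : P.WF) (K a q : ℕ) :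
    (edgeAt P K a).testBit q = (K.testBit (P.wd * a + q) && decide (q < 16 * P.r)) := by
  unfold edgeAt
  rw [tb_land, tb_shr, hP.all]
  rfl

theorem ne_zero_of_tb {m q : ℕ} (h : m.testBit q = true) : m ≠ 0 := by
  rintro rfl
  simp at h

end Vale.Agent.P045b
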