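import Mathlib
import Vale.Agent.P045b.Base

/-!
# P045: semantics of the states of the extension tree checker
-/

namespace Vale.Agent.P045b

universe u

/-- two vectors agree in one of the first `r` coordinates -/
def Meets {V : Type u} (r : ℕ) (e f : ℕ → V) : Prop := ∃ i, i < r ∧ e i = f i

/-- `E` is a set of vectors (edges of an `r`-partite hypergraph: the vertex of `e` in part `i` is
`(i, e i)`) without two (three) pairwise disjoint members and without a cover by `c` vertices -/
structure Bad {V : Type u} (P : Par) (E : (ℕ → V) → Prop) : Prop where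
  nomatch1 : P.two = false → ∀ e f, E e → E f → Meets P.r e f
  nomatch2 : P.two = true → ∀ e f g, E e → E f → E g →
    Meets P.r e f ∨ Meets P.r e g ∨ Meets P.r f g
  nocover : ∀ C : List (ℕ × V), C.length ≤ P.c → ∃ e, E e ∧ ∀ i, i < P.r → (i, e i) ∉ C

/-- the constants fit together -/
structure Par.WF (P : Par) : Prop where
  r8 : P.r ≤ 8
  wd : P.wd = 16 * P.r
  all : ∀ p, P.all.testBit p = decide (p < 16 * P.r)
  top : ∀ i, i < P.r → P.top.testBit (16 * i + 15) = true
  tw1 : P.two = true → P.tw = P.all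
  tw0 : P.two = false → P.tw = 0

/-- the state `K k U Fm` is realised in `E`: `φ i x` is the vertex with label `x` of part `i`,
`c i` the number of labels of part `i` -/
structure Emb {V : Type u} (P : Par) (E : (ℕ → V) → Prop) (K k U Fm : ℕ) (φ : ℕ → ℕ → V)
    (c : ℕ → ℕ) : Prop where
  c14 : ∀ i, i < P.r → c i ≤ 14
  used : ∀ i, i < P.r → ∀ x, x < 16 → (U.testBit (16 * i + x) = true ↔ x < c i)
  fresh : ∀ i, i < P.r → ∀ x, x < 16 → (Fm.testBit (16 * i + x) = true ↔ x = c i)
  inj : ∀ i, i < P.r → ∀ x y, x < c i → y < c i → φ i x = φ i y → x = y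
  edge : ∀ j, j < k → ∃ e, E e ∧ ∀ i, i < P.r →
    ∃ x, x < c i ∧ K.testBit (P.wd * j + (16 * i + x)) = true ∧ e i = φ i x

/-- the state cannot be realised in a bad hypergraph -/
def Refuted (P : Par) (K k U Fm : ℕ) : Prop :=
  ∀ (V : Type u) (E : (ℕ → V) → Prop), Bad P E → ∀ φ c, ¬ Emb P E K k U Fm φ c

/-- the entry `e` of the data base is refuted -/
def Good (P : Par) (e : ℕ) : Prop :=
  Refuted.{u} P (entE e) (entK e) (mkU (entN e) P.r) (mkF (entN e) P.r)

end Vale.Agent.P045b
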