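import Vale.Agent.P045b.Defs

/-!
# P045: from the checker statement `¬ Bad P E` to `r`-partite hypergraphs, for every `r`

A hypergraph is given by `part : V → Fin r` and `edges : Finset (Finset V)`, every edge containing
exactly one vertex of each part.
-/

namespace Vale.Agent.P045b

universe u

variable {r : ℕ} {V : Type u}

/-- the vectors of the edges -/
def vecs (part : V → Fin r) (edges : Finset (Finset V)) (v : ℕ → V) : Prop :=
  ∃ e ∈ edges, ∀ i : Fin r, v i.val ∈ e ∧ part (v i.val) = i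

theorem exists_vec (hr0 : 0 < r) (part : V → Fin r) (edges : Finset (Finset V))
    (hpart : ∀ e ∈ edges, ∀ i : Fin r, ∃! v, v ∈ e ∧ part v = i) {e : Finset V} (he : e ∈ edges) :
    ∃ v : ℕ → V, ∀ i : Fin r, v i.val ∈ e ∧ part (v i.val) = i := by
  choose f hf _ using fun i => hpart e he i
  refine ⟨fun n => if h : n < r then f ⟨n, h⟩ else f ⟨0, hr0⟩, ?_⟩
  intro i
  simp only [i.isLt, dite_true]
  exact hf i

theorem meets_of_not_disjoint (part : V → Fin r) (edges : Finset (Finset V))
    (hpart : ∀ e ∈ edges, ∀ i : Fin r, ∃! v, v ∈ e ∧ part v = i) {a b : Finset V}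
    (ha : a ∈ edges) (hb : b ∈ edges) {e f : ℕ → V}
    (he : ∀ i : Fin r, e i.val ∈ a ∧ part (e i.val) = i)
    (hf : ∀ i : Fin r, f i.val ∈ b ∧ part (f i.val) = i) (h : ¬ Disjoint a b) : Meets r e f := by
  rw [Finset.not_disjoint_iff] at h
  obtain ⟨v, hv, hv'⟩ := h
  refine ⟨(part v).val, (part v).isLt, ?_⟩
  have h1 := (hpart a ha (part v)).unique (he _) ⟨hv, rfl⟩
  have h2 := (hpart b hb (part v)).unique (hf _) ⟨hv', rfl⟩
  rw [h1, h2]

/-- the general reduction -/
theorem cover_of_not_bad (hr0 : 0 < r) (part : V → Fin r) (edges : Finset (Finset V))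
    (hpart : ∀ e ∈ edges, ∀ i : Fin r, ∃! v, v ∈ e ∧ part v = i) (P : Par) (hr : P.r = r)
    (core : ¬ Bad P (vecs part edges))
    (hm1 : P.two = false → ∀ e ∈ edges, ∀ f ∈ edges, ¬ Disjoint e f)
    (hm2 : P.two = true → ∀ e ∈ edges, ∀ f ∈ edges, ∀ g ∈ edges,
      ¬ (Disjoint e f ∧ Disjoint e g ∧ Disjoint f g)) :
    ∃ C : Finset V, C.card ≤ P.c ∧ ∀ e ∈ edges, ∃ v ∈ C, v ∈ e := by
  classical
  by_contra hno
  apply core
  refine ⟨?_, ?_, ?_⟩
  · rintro h0 e f ⟨a, ha, he⟩ ⟨b, hb, hf⟩
    rw [hr]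
    exact meets_of_not_disjoint part edges hpart ha hb he hf (hm1 h0 a ha b hb)
  · rintro h0 e f g ⟨a, ha, he⟩ ⟨b, hb, hf⟩ ⟨c, hc, hg⟩
    rw [hr]
    by_contra hcon
    push Not at hcon
    obtain ⟨c1, c2, c3⟩ := hcon
    refine hm2 h0 a ha b hb c hc ⟨?_, ?_, ?_⟩
    · by_contra hd
      exact c1 (meets_of_not_disjoint part edges hpart ha hb he hf hd)
    · by_contra hd
      exact c2 (meets_of_not_disjoint part edges hpart ha hc he hg hd)
    · by_contra hd
      exact c3 (meets_of_not_disjoint part edges hpart hb hc hf hg hd)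
  · intro C hC
    by_contra hcon
    apply hno
    refine ⟨(C.map Prod.snd).toFinset, ?_, ?_⟩
    · refine (List.toFinset_card_le _).trans ?_
      rw [List.length_map]
      exact hC
    · intro a ha
      obtain ⟨v, hv⟩ := exists_vec hr0 part edges hpart ha
      by_contra hne
      apply hcon
      refine ⟨v, ⟨a, ha, hv⟩, ?_⟩
      intro i hi hmem
      rw [hr] at hi
      apply hne
      refine ⟨v i, ?_, (hv ⟨i, hi⟩).1⟩
      rw [List.mem_toFinset, List.mem_map]
      exact ⟨(i, v i), hmem, rfl⟩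

/-- intersecting hypergraphs -/
theorem ryser_one (hr0 : 0 < r) (P : Par) (hr : P.r = r) (h2 : P.two = false)
    (core : ∀ (V : Type u) (E : (ℕ → V) → Prop), ¬ Bad P E)
    (part : V → Fin r) (edges : Finset (Finset V))
    (hpart : ∀ e ∈ edges, ∀ i : Fin r, ∃! v, v ∈ e ∧ part v = i)
    (hint : ∀ e ∈ edges, ∀ f ∈ edges, ¬ Disjoint e f) :
    ∃ C : Finset V, C.card ≤ P.c ∧ ∀ e ∈ edges, ∃ v ∈ C, v ∈ e :=
  cover_of_not_bad hr0 part edges hpart P hr (core V _) (fun _ => hint)
    (fun h => by rw [h2] at h; exact absurd h (by decide))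

/-- hypergraphs without three pairwise disjoint edges -/
theorem ryser_two (hr0 : 0 < r) (P : Par) (hr : P.r = r) (h2 : P.two = true)
    (core : ∀ (V : Type u) (E : (ℕ → V) → Prop), ¬ Bad P E)
    (part : V → Fin r) (edges : Finset (Finset V))
    (hpart : ∀ e ∈ edges, ∀ i : Fin r, ∃! v, v ∈ e ∧ part v = i)
    (hthree : ∀ e ∈ edges, ∀ f ∈ edges, ∀ g ∈ edges,
      ¬ (Disjoint e f ∧ Disjoint e g ∧ Disjoint f g)) :
    ∃ C : Finset V, C.card ≤ P.c ∧ ∀ e ∈ edges, ∃ v ∈ C, v ∈ e :=
  cover_of_not_bad hr0 part edges hpart P hr (core V _)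
    (fun h => by rw [h2] at h; exact absurd h (by decide)) (fun _ => hthree)

theorem edge_nonempty (hr0 : 0 < r) (part : V → Fin r) (edges : Finset (Finset V))
    (hpart : ∀ e ∈ edges, ∀ i : Fin r, ∃! v, v ∈ e ∧ part v = i) {e : Finset V} (he : e ∈ edges) :
    e.Nonempty := by
  obtain ⟨v, hv, _⟩ := hpart e he ⟨0, hr0⟩
  exact ⟨v, hv.1⟩

/-- Ryser's inequality `τ ≤ (r - 1) ν` for `ν ≤ 2`, in the form: if every matching has at most
`k ≤ 2` members then `c * k` vertices meet all edges. -/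
theorem ryser_le_two (hr0 : 0 < r) (c : ℕ) (P1 P2 : Par) (hr1 : P1.r = r) (hr2 : P2.r = r)
    (h1 : P1.two = false) (h2 : P2.two = true) (hc1 : P1.c = c) (hc2 : P2.c = c * 2)
    (core1 : ∀ (V : Type u) (E : (ℕ → V) → Prop), ¬ Bad P1 E)
    (core2 : ∀ (V : Type u) (E : (ℕ → V) → Prop), ¬ Bad P2 E)
    (part : V → Fin r) (edges : Finset (Finset V))
    (hpart : ∀ e ∈ edges, ∀ i : Fin r, ∃! v, v ∈ e ∧ part v = i)
    (k : ℕ) (hk : k ≤ 2)
    (hmatch : ∀ M : Finset (Finset V), M ⊆ edges →
      (∀ e ∈ M, ∀ f ∈ M, e ≠ f → Disjoint e f) → M.card ≤ k) :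
    ∃ C : Finset V, C.card ≤ c * k ∧ ∀ e ∈ edges, ∃ v ∈ C, v ∈ e := by
  classical
  have hne : ∀ x ∈ edges, ∀ y, Disjoint x y → x ≠ y := by
    rintro x hx y hd rfl
    exact (edge_nonempty hr0 part edges hpart hx).ne_empty (Finset.disjoint_self_iff_empty x |>.mp hd)
  have hsingle : ∀ e ∈ edges, 1 ≤ k := by
    intro e he
    have := hmatch {e} (by simpa using he) (by
      intro x hx y hy hxy
      rw [Finset.mem_singleton.mp hx, Finset.mem_singleton.mp hy] at hxy
      exact absurd rfl hxy)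
    simpa using this
  have hpair : ∀ e ∈ edges, ∀ f ∈ edges, Disjoint e f → 2 ≤ k := by
    intro e he f hf hd
    have := hmatch {e, f} (by
      intro x hx
      simp only [Finset.mem_insert, Finset.mem_singleton] at hx
      rcases hx with rfl | rfl <;> assumption) (by
      intro x hx y hy hxy
      simp only [Finset.mem_insert, Finset.mem_singleton] at hx hy
      rcases hx with rfl | rfl <;> rcases hy with rfl | rfl <;>
        first
          | exact absurd rfl hxy
          | assumption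
          | (apply Disjoint.symm; assumption))
    rwa [Finset.card_pair (hne e he f hd)] at this
  have htriple : ∀ e ∈ edges, ∀ f ∈ edges, ∀ g ∈ edges,
      ¬ (Disjoint e f ∧ Disjoint e g ∧ Disjoint f g) := by
    rintro e he f hf g hg ⟨hef, heg, hfg⟩
    have := hmatch {e, f, g} (by
      intro x hx
      simp only [Finset.mem_insert, Finset.mem_singleton] at hx
      rcases hx with rfl | rfl | rfl <;> assumption) (by
      intro x hx y hy hxy
      simp only [Finset.mem_insert, Finset.mem_singleton] at hx hy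
      rcases hx with rfl | rfl | rfl <;> rcases hy with rfl | rfl | rfl <;>
        first
          | exact absurd rfl hxy
          | assumption
          | (apply Disjoint.symm; assumption))
    rw [Finset.card_eq_three.mpr ⟨e, f, g, hne e he f hef, hne e he g heg, hne f hf g hfg, rfl⟩]
      at this
    omega
  have hcases : k = 0 ∨ k = 1 ∨ k = 2 := by omega
  rcases hcases with rfl | rfl | rfl
  · refine ⟨∅, by simp, ?_⟩
    intro e he
    have := hsingle e he
    omega
  · obtain ⟨C, hC, hcov⟩ := ryser_one hr0 P1 hr1 h1 core1 part edges hpart (by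
      intro e he f hf hd
      have := hpair e he f hf hd
      omega)
    exact ⟨C, by rw [hc1] at hC; simpa using hC, hcov⟩
  · obtain ⟨C, hC, hcov⟩ := ryser_two hr0 P2 hr2 h2 core2 part edges hpart htriple
    exact ⟨C, by rw [hc2] at hC; exact hC, hcov⟩

end Vale.Agent.P045b
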